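import Vale.Agent.P237.Balls

/-! P237 (Petty's projection-volume conjecture), partial answer: the strict inequality for all
bodies built from low-dimensional ones by products, pyramids and affine maps and for all bodies
largely filled by them, and its stability under direct products and pyramids. -/

open P237

theorem Vale.Agent.Results.P237.DecomposableBodies.result :
    (∀ (n : ℕ) (K L : Set (E n)), Body K → Good n L → L ⊆ K → CubeLe L K) ∧
    (∀ n : ℕ, 3 ≤ n → ∀ K : Set (E n), Good n K → Body K ∧ PettyLt K) ∧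
    (∀ n : ℕ, 3 ≤ n → ∀ K L : Set (E n), Body K → Good n L → L ⊆ K → Fills L K → PettyLt K) ∧
    (∀ m n : ℕ, 1 ≤ m → 1 ≤ n → 3 ≤ m + n → ∀ (K : Set (E m)) (L : Set (E n)),
      Body K → Body L → PettyLe K → PettyLe L → PettyLt (cat K L)) ∧
    (∀ n : ℕ, 2 ≤ n → ∀ K : Set (E n), Body K → PettyLe K → PettyLt (cone K)) ∧
    (∀ (n : ℕ) (K : Set (E n)), Ext n K → Body K ∧ PettyLe K) :=
  ⟨fun _ _ _ hK hL h => good_cubeLe hK hL h, fun _ hn _ hK => good_pettyLt hn hK,
    fun _ hn _ _ hK hL h hf => good_fills hn hK hL h hf,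
    fun _ _ hm hn h _ _ hK hL h1 h2 => pettyLe_cat hm hn h hK hL h1 h2,
    fun _ hn _ hK h1 => pettyLe_cone hn hK h1, fun _ _ h => ext_pettyLe h⟩
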